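import Crest.Prelude.Def_VlasovMaxwell

/-! Row 106, block HR (owner helper81): the cut-off system, its Picard iteration, and the interfaces.
All functions are UNCURRIED and smooth on the whole space-time: `f : PZ → ℝ` at `(t, x, v)`, `K = (E, B) : PX → K6` at `(t, x)`.
The force is `A (t, x, v) (K (t, x))` with `A` smooth, compactly supported and `div_v`-free. -/

set_option autoImplicit false

noncomputable section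

namespace Crest.Agent.R106.HR

open MeasureTheory Set Crest.AnalysisR.VecCalc3 Crest.AnalysisR.PDE.RVM
open scoped ContDiff

/-- `(t, x)` -/
abbrev PX : Type := ℝ × R3
/-- `(x, v)` -/
abbrev Z6 : Type := R3 × R3
/-- `(t, x, v)` -/
abbrev PZ : Type := ℝ × Z6
/-- `(E, B)` -/
abbrev K6 : Type := R3 × R3

/-- the standard basis -/
def ee (i : Fin 3) : R3 := EuclideanSpace.single i 1
/-- `(t, x, v) ↦ (t, x)` -/
def px : PZ →L[ℝ] PX :=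
  (ContinuousLinearMap.fst ℝ ℝ Z6).prod ((ContinuousLinearMap.fst ℝ R3 R3).comp (ContinuousLinearMap.snd ℝ ℝ Z6))
@[simp] theorem px_apply (p : PZ) : px p = (p.1, p.2.1) := rfl

/-- `a ↦ e_i × a` -/
def crL (i : Fin 3) : R3 →L[ℝ] R3 := LinearMap.toContinuousLinearMap
  { toFun := fun a => cross3 (ee i) a
    map_add' := fun a b => by ext j; fin_cases j <;> simp [cross3] <;> ring
    map_smul' := fun c a => by ext j; fin_cases j <;> simp [cross3] <;> ring }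
theorem crL_apply (i : Fin 3) (a : R3) : crL i a = cross3 (ee i) a := rfl
/-- `(E, B) ↦ (e_i × B, -e_i × E)`; `∑ i, rot i (∂_i K) = (curl B, -curl E)` -/
def rot (i : Fin 3) : K6 →L[ℝ] K6 :=
  ((crL i).comp (ContinuousLinearMap.snd ℝ R3 R3)).prod (-((crL i).comp (ContinuousLinearMap.fst ℝ R3 R3)))
theorem rot_apply (i : Fin 3) (k : K6) : rot i k = (cross3 (ee i) k.2, -cross3 (ee i) k.1) := rfl

/-- charge density -/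
def rho (u : PZ → ℝ) (q : PX) : ℝ := ∫ v, u (q.1, q.2, v)
/-- current density -/
def cur (u : PZ → ℝ) (q : PX) : R3 := ∫ v, u (q.1, q.2, v) • relVel v

/-- Maxwell's equations at `q` for a field with derivative `L` at `q` and sources `ρ`, `j` -/
structure MxL (L : PX →L[ℝ] K6) (ρ : ℝ) (j : R3) : Prop where
  ev : L (1, 0) = ∑ i, rot i (L (0, ee i)) - (j, 0)
  dE : ∑ i, (L (0, ee i)).1 i = ρ
  dB : ∑ i, (L (0, ee i)).2 i = 0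

/-- the LINEAR Vlasov-Maxwell system `∂ₜ u + v̂·∇ₓ u + div_v H = 0`, Maxwell with the sources of `u`, momenta in `‖v‖ < R` -/
structure Lin (R : ℝ) (u : PZ → ℝ) (H : PZ → R3) (K : PX → K6) : Prop where
  su : ContDiff ℝ ∞ u
  sH : ContDiff ℝ ∞ H
  sK : ContDiff ℝ ∞ K
  supp : ∀ p : PZ, R ≤ ‖p.2.2‖ → u p = 0 ∧ H p = 0
  vl : ∀ p : PZ, fderiv ℝ u p (1, relVel p.2.2, 0) + ∑ i, fderiv ℝ H p (0, 0, ee i) i = 0
  mx : ∀ q : PX, MxL (fderiv ℝ K q) (rho u q) (cur u q)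

/-- an admissible cut-off force -/
structure Force (R : ℝ) (A : PZ → K6 →L[ℝ] R3) : Prop where
  sm : ContDiff ℝ ∞ A
  cs : HasCompactSupport A
  supp : ∀ p : PZ, R ≤ ‖p.2.2‖ → A p = 0
  dv : ∀ (p : PZ) (k : K6), ∑ i, fderiv ℝ A p (0, 0, ee i) k i = 0

/-- the phase space vector field `(v̂, A K)` -/
def vf (A : PZ → K6 →L[ℝ] R3) (K : PX → K6) (p : PZ) : Z6 := (relVel p.2.2, A p (K (px p)))
/-- the momentum flux `f A K` -/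
def flx (A : PZ → K6 →L[ℝ] R3) (K : PX → K6) (f : PZ → ℝ) (p : PZ) : R3 := f p • A p (K (px p))

/-- all spatial derivatives of order `≤ k` of `g` are bounded by `M` -/
def Bd {X F : Type} [NormedAddCommGroup X] [NormedSpace ℝ X] [NormedAddCommGroup F] [NormedSpace ℝ F] (k : ℕ) (g : X → F) (M : ℝ) : Prop :=
  ∀ j ≤ k, ∀ x, ‖iteratedFDeriv ℝ j g x‖ ≤ M
/-- the time slice -/
def sl {X F : Type} (g : ℝ × X → F) (t : ℝ) : X → F := fun x => g (t, x)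

/-- smooth data: `f₀` vanishes for `‖x‖ ≥ R` or `‖v‖ ≥ R`, all derivatives of `K₀` are bounded -/
structure Dat (R : ℝ) (f₀ : Z6 → ℝ) (K₀ : R3 → K6) : Prop where
  sf : ContDiff ℝ ∞ f₀
  sK : ContDiff ℝ ∞ K₀
  supp : ∀ z : Z6, R ≤ ‖z.1‖ ∨ R ≤ ‖z.2‖ → f₀ z = 0
  bK : ∀ k, ∃ M, Bd k K₀ M
  dE : ∀ x, ∑ i, (fderiv ℝ K₀ x (ee i)).1 i = ∫ v, f₀ (x, v)
  dB : ∀ x, ∑ i, (fderiv ℝ K₀ x (ee i)).2 i = 0

/-- the Picard iteration: `K 0 = 0`, `f n` is transported by `vf A (K n)`, `K (n + 1)` solves Maxwell with the sources of `f n` -/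
structure Pic (R : ℝ) (A : PZ → K6 →L[ℝ] R3) (f₀ : Z6 → ℝ) (K₀ : R3 → K6) (f : ℕ → PZ → ℝ) (K : ℕ → PX → K6) : Prop where
  sf : ∀ n, ContDiff ℝ ∞ (f n)
  sK : ∀ n, ContDiff ℝ ∞ (K n)
  K0 : K 0 = 0
  df : ∀ n z, f n (0, z) = f₀ z
  dK : ∀ n x, K (n + 1) (0, x) = K₀ x
  vl : ∀ n p, fderiv ℝ (f n) p (1, vf A (K n) p) = 0
  sv : ∀ n (p : PZ), R ≤ ‖p.2.2‖ → f n p = 0
  sx : ∀ n (p : PZ), R + |p.1| ≤ ‖p.2.1‖ → f n p = 0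
  nn : (∀ z, 0 ≤ f₀ z) → ∀ n p, 0 ≤ f n p
  mx : ∀ n q, MxL (fderiv ℝ (K (n + 1)) q) (rho (f n) q) (cur (f n) q)

/-- `K` is the free field `Kf` far away -/
def Far (R : ℝ) (Kf K : PX → K6) : Prop := ∀ q : PX, 0 ≤ q.1 → R + 2 * q.1 ≤ ‖q.2‖ → K q = Kf q

/-- a smooth solution of the cut-off system on the slab `|t| ≤ T` -/
structure Cut (R T : ℝ) (A : PZ → K6 →L[ℝ] R3) (f₀ : Z6 → ℝ) (K₀ : R3 → K6) (f : PZ → ℝ) (K : PX → K6) : Prop where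
  sf : ContDiffOn ℝ ∞ f (Icc (-T) T ×ˢ univ)
  sK : ContDiffOn ℝ ∞ K (Icc (-T) T ×ˢ univ)
  df : ∀ z, f (0, z) = f₀ z
  dK : ∀ x, K (0, x) = K₀ x
  vl : ∀ p : PZ, |p.1| < T → fderiv ℝ f p (1, vf A K p) = 0
  sv : ∀ p : PZ, |p.1| ≤ T → R ≤ ‖p.2.2‖ → f p = 0
  sx : ∀ p : PZ, |p.1| ≤ T → R + |p.1| ≤ ‖p.2.1‖ → f p = 0
  nn : (∀ z, 0 ≤ f₀ z) → ∀ p : PZ, |p.1| ≤ T → 0 ≤ f p
  mx : ∀ q : PX, |q.1| < T → MxL (fderiv ℝ K q) (rho f q) (cur f q)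
  bK : ∀ k, ∃ M, ∀ q : PX, |q.1| < T → ‖iteratedFDeriv ℝ k K q‖ ≤ M

/-- Glassey-Strauss, `C⁰` form -/
def S_GS0 : Prop := ∀ R T : ℝ, ∃ C : ℝ, 0 ≤ C ∧ ∀ (u : PZ → ℝ) (H : PZ → R3) (K : PX → K6), Lin R u H K →
  ∀ (a : ℝ) (φ : ℝ → ℝ), Continuous φ → Bd 1 (sl K 0) a → (∀ z, |u (0, z)| ≤ a) →
    ∀ t ∈ Icc 0 T, (∀ s ∈ Icc 0 t, ∀ z, |u (s, z)| ≤ φ s ∧ ‖H (s, z)‖ ≤ φ s) → ∀ x, ‖K (t, x)‖ ≤ C * (a + ∫ s in (0 : ℝ)..t, φ s)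

/-- Glassey-Strauss, logarithmic estimate of the first space derivatives of the new field `K'` -/
def S_LOG : Prop := ∀ (R T M : ℝ) (A : PZ → K6 →L[ℝ] R3), Force R A → ∃ C : ℝ, 0 ≤ C ∧
  ∀ (f : PZ → ℝ) (K K' : PX → K6), ContDiff ℝ ∞ K → Lin R f (flx A K f) K' → Bd 2 (sl K' 0) M → Bd 1 (sl f 0) M →
    (∀ s ∈ Icc 0 T, (∀ z, |f (s, z)| ≤ M) ∧ ∀ x, ‖K (s, x)‖ ≤ M) →
    ∀ (N : ℝ) (φ : ℝ → ℝ), 1 ≤ N → Continuous φ → ∀ t ∈ Icc 0 T,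
      (∀ s ∈ Icc 0 t, (∀ z, ‖fderiv ℝ (sl f s) z‖ ≤ N) ∧ ∀ x, ‖fderiv ℝ K (s, x)‖ ≤ φ s) →
      ∀ x, ‖fderiv ℝ (sl K' t) x‖ ≤ C * (1 + Real.log N + ∫ s in (0 : ℝ)..t, φ s)

/-- `L²` in space, continuous in time -/
def L2C (K : PX → K6) (S : Set ℝ) : Prop := ∀ t ∈ S, MemLp (sl K t) 2 ∧
  Filter.Tendsto (fun s => eLpNorm (sl K s - sl K t) 2 volume) (nhdsWithin t S) (nhds 0)

/-- existence of the Picard iteration (flow + Maxwell solver); the free field `Kf` is continuous with values in `L²` -/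
def S_PIC : Prop := ∀ (R : ℝ) (f₀ : Z6 → ℝ) (K₀ : R3 → K6), Dat R f₀ K₀ → MemLp K₀ 2 →
  ∃ Kf : PX → K6, Continuous Kf ∧ L2C Kf (Ici 0) ∧ ∀ A, Force R A → ∃ f K, Pic R A f₀ K₀ f K ∧ ∀ n, Far R Kf (K (n + 1))

/-- OUTPUT of block HR: the Picard iteration converges -/
def S_CONV : Prop := ∀ (R T : ℝ) (A : PZ → K6 →L[ℝ] R3) (f₀ : Z6 → ℝ) (K₀ : R3 → K6) (f : ℕ → PZ → ℝ)
  (K : ℕ → PX → K6), 0 < T → Force R A → Dat R f₀ K₀ → Pic R A f₀ K₀ f K →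
    ∃ g L, Cut R T A f₀ K₀ g L ∧ ∀ q : PX, |q.1| ≤ T → Filter.Tendsto (fun n => K n q) Filter.atTop (nhds (L q))

end Crest.Agent.R106.HR
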